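import Vale.Agent.P256.Fin

/-! P256: block reduction of a linear matrix inequality with a scaling symmetry. -/

namespace Vale.Agent.P256

open Set Filter Topology

abbrev Bf (V : Type*) [AddCommGroup V] [Module ℝ V] := V →ₗ[ℝ] V →ₗ[ℝ] ℝ

theorem cs2 {A b c : ℝ} (h : ∀ r : ℝ, 0 ≤ A + 2 * r * c + r ^ 2 * b) : c ^ 2 ≤ A * b := by
  have := discrim_le_zero (a := b) (b := 2 * c) (c := A) fun r => by nlinarith [h r]
  rw [discrim] at this
  nlinarith

theorem lim0 {f : ℝ → ℝ} (hf : Continuous f) (h : ∀ ρ, 0 < ρ → 0 ≤ f ρ) : 0 ≤ f 0 :=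
  ge_of_tendsto ((hf.tendsto 0).mono_left (nhdsWithin_le_nhds (s := Ioi 0)))
    (eventually_nhdsWithin_of_forall h)

section
variable {V : Type*} [AddCommGroup V] [Module ℝ V]

structure Psd (B : Bf V) : Prop where
  symm : ∀ x x', B x x' = B x' x
  nn : ∀ x, 0 ≤ B x x

theorem Psd.ker {B : Bf V} (h : Psd B) {w : V} (hw : B w w = 0) : B w = 0 := by
  ext x
  have := cs2 (A := B x x) (b := 0) (c := B w x) fun r => by
    have := h.nn (x + r • w)
    simp only [map_add, map_smul, LinearMap.add_apply, LinearMap.smul_apply, smul_eq_mul, hw,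
      h.symm x w] at this
    linarith
  simpa using this

theorem expand {α β γ : Bf V} (sα : ∀ x x', α x x' = α x' x) (sβ : ∀ x x', β x x' = β x' x)
    (sγ : ∀ x x', γ x x' = γ x' x) {w : V} (hw : α w = 0) (v : V) {ρ : ℝ} (h : ρ ≠ 0) :
    ρ⁻¹ * α (ρ • v + w) (ρ • v + w) + ρ * β (ρ • v + w) (ρ • v + w) + γ (ρ • v + w) (ρ • v + w) =
      γ w w + ρ * (α v v + 2 * γ v w + β w w + ρ * (2 * β v w + γ v v) + ρ ^ 2 * β v v) := by
  simp only [map_add, map_smul, LinearMap.add_apply, LinearMap.smul_apply, smul_eq_mul, sα v w, hw,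
    LinearMap.zero_apply, sβ w v, sγ w v]
  field_simp
  ring

theorem lim1 {α β γ : Bf V} (sα : ∀ x x', α x x' = α x' x) (sβ : ∀ x x', β x x' = β x' x)
    (sγ : ∀ x x', γ x x' = γ x' x)
    (H : ∀ l : ℝ, 0 < l → ∀ x, 0 ≤ l * α x x + l⁻¹ * β x x + γ x x) {w : V} (hw : α w = 0) :
    0 ≤ γ w w ∧ (γ w w = 0 → ∀ v, γ v w ^ 2 ≤ α v v * β w w) := by
  have H1 : ∀ w, α w = 0 → ∀ v (ρ : ℝ), 0 < ρ → 0 ≤
      γ w w + ρ * (α v v + 2 * γ v w + β w w + ρ * (2 * β v w + γ v v) + ρ ^ 2 * β v v) :=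
    fun w hw v ρ h => by
      have := H ρ⁻¹ (inv_pos.2 h) (ρ • v + w)
      rwa [inv_inv, expand sα sβ sγ hw v h.ne'] at this
  refine ⟨by simpa using lim0 (by fun_prop) (H1 w hw w), fun h0 v => cs2 fun r => ?_⟩
  have := lim0 (f := fun ρ => α v v + 2 * γ v (r • w) + β (r • w) (r • w) +
      ρ * (2 * β v (r • w) + γ v v) + ρ ^ 2 * β v v) (by fun_prop) fun ρ h => by
    have h1 := H1 (r • w) (by rw [map_smul, hw, smul_zero]) v ρ h
    rw [show γ (r • w) (r • w) = 0 by simp [h0], zero_add] at h1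
    exact le_of_mul_le_mul_left (by simpa using h1) h
  simp only [map_smul, LinearMap.smul_apply, smul_eq_mul] at this
  linarith

end

theorem cont2 {V X : Type*} [NormedAddCommGroup V] [NormedSpace ℝ V] [FiniteDimensional ℝ V]
    [TopologicalSpace X] (B : Bf V) {f g : X → V} (hf : Continuous f) (hg : Continuous g) :
    Continuous fun x => B (f x) (g x) :=
  (B.toContinuousBilinearMap.continuous.comp hf).clm_apply hg

theorem thmA {Y V : Type*} [AddCommGroup Y] [Module ℝ Y] [NormedAddCommGroup V] [NormedSpace ℝ V]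
    [FiniteDimensional ℝ V] (AI BI : Bf V) (AP BP : Y → Bf V) (C : Y →ₗ[ℝ] Bf V)
    (B1 : Y → Y →ₗ[ℝ] Bf V) (B2 : Y → Bf V) (pA : Psd AI) (pB : Psd BI) (pAP : ∀ a, Psd (AP a))
    (pBP : ∀ a, Psd (BP a)) (sC : ∀ y x x', C y x x' = C y x' x)
    (dA : ∀ a, ∃ c : ℝ, ∀ x, AP a x x ≤ c * AI x x)
    (dB : ∀ a, ∃ c : ℝ, ∀ x, BP a x x ≤ c * BI x x)
    (hM : ∀ a d (δ : ℝ), BP (a + δ • d) = BP a + δ • B1 a d + δ ^ 2 • B2 d)
    (q : Y → Y → ℝ) (hq : ∀ y d (δ : ℝ), q y (δ • d) = δ ^ 2 * q y d) (q0 : ∀ y d, 0 ≤ q y d)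
    (hext : ∀ (l : Y →ₗ[ℝ] Y →ₗ[ℝ] ℝ) (c : ℝ), (∀ y d, l y d ^ 2 ≤ c * q y d) → l = 0)
    (hc : ∀ a d y (τ : ℝ), q y d < τ → ∃ s : ℝ, 0 ≤ s ∧ ∀ l : ℝ, 0 < l → ∀ x,
      0 ≤ l * (s • AP a + AI) x x + l⁻¹ * (s • BP (a + d) + τ • BI) x x + C y x x)
    (y0 d0 : Y)
    (hd : ∀ a, ∃ N : ℝ, 0 < N ∧ ∀ δ : ℝ, 0 < δ → δ ≤ 1 → ∀ s t l : ℝ, 0 < s → 0 < t → 0 < l →
      (∀ x, 0 ≤ l * (s • AP a + (3 : ℝ) • AI) x x + l⁻¹ * (s • BP (a + δ • d0) + t • BI) x x +
        C y0 x x) → δ ^ 2 ≤ t * N) : False := by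
  have kA : ∀ a w, AI w = 0 → AP a w = 0 := fun a w hw => by
    obtain ⟨c, hc⟩ := dA a
    exact (pAP a).ker (le_antisymm (by simpa [hw] using hc w) ((pAP a).nn w))
  have kB : ∀ a w, BI w = 0 → BP a w = 0 := fun a w hw => by
    obtain ⟨c, hc⟩ := dB a
    exact (pBP a).ker (le_antisymm (by simpa [hw] using hc w) ((pBP a).nn w))
  have sy : ∀ {P Q : Bf V}, Psd P → Psd Q → ∀ (s t : ℝ) x x',
      (s • P + t • Q) x x' = (s • P + t • Q) x' x := fun hP hQ s t x x' => by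
    simp [hP.symm x, hQ.symm x]
  have L1 := fun a d y τ s (H : ∀ l : ℝ, 0 < l → ∀ x,
      0 ≤ l * (s • AP a + AI) x x + l⁻¹ * (s • BP (a + d) + τ • BI) x x + C y x x)
      w (hw : AI w = 0) =>
    lim1 (fun x x' => by simp [pA.symm x, (pAP a).symm x]) (sy (pBP _) pB s τ) (sC y) H (w := w)
      (by simp [hw, kA a w hw])
  have C0 : ∀ y w, AI w = 0 → C y w w = 0 := fun y w hw => by
    obtain ⟨s, -, H⟩ := hc 0 0 y _ (lt_add_one _)
    obtain ⟨s', -, H'⟩ := hc 0 0 (-y) _ (lt_add_one _)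
    have h1 := (L1 _ _ _ _ _ H w hw).1
    have h2 := (L1 _ _ _ _ _ H' w hw).1
    simp only [map_neg, LinearMap.neg_apply] at h2
    linarith
  have FH : ∀ a d y τ, q y d < τ → ∃ s : ℝ, 0 ≤ s ∧ ∀ v w, AI w = 0 → C y v w ^ 2 ≤
      (s * AP a v v + AI v v) * (s * BP (a + d) w w + τ * BI w w) := fun a d y τ h => by
    obtain ⟨s, s0, H⟩ := hc a d y τ h
    exact ⟨s, s0, fun v w hw => (L1 _ _ _ _ _ H w hw).2 (C0 y w hw) v⟩
  have CW : ∀ y w, AI w = 0 → BI w = 0 → C y w = 0 := fun y w h1 h2 => by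
    obtain ⟨s, -, H⟩ := FH 0 0 y _ (lt_add_one _)
    ext v
    simpa [h2, kB _ w h2, sC y v] using H v w h1
  obtain ⟨E1, h1⟩ := Submodule.exists_isCompl (LinearMap.ker AI)
  obtain ⟨W, h2⟩ := Submodule.exists_isCompl (LinearMap.ker AI ⊓ LinearMap.ker BI)
  set E2 := W ⊓ LinearMap.ker AI
  have n1 : ∀ v ∈ E1, v ≠ 0 → 0 < AI v v := fun v hv v0 => (pA.nn v).lt_of_ne' fun e =>
    v0 (Submodule.disjoint_def.1 h1.disjoint v (pA.ker e) hv)
  have n2 : ∀ w ∈ E2, w ≠ 0 → 0 < BI w w := fun w hw w0 => (pB.nn w).lt_of_ne' fun e =>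
    w0 (Submodule.disjoint_def.1 h2.disjoint w ⟨hw.2, pB.ker e⟩ hw.1)
  have hs : ∀ (B : Bf V) (c : ℝ) x x', B (c • x) (c • x') = c ^ 2 * B x x' := fun B c x x' => by
    simp only [map_smul, LinearMap.smul_apply, smul_eq_mul]; ring
  have hs' : ∀ (c : ℝ) (x : V), ‖c • x‖ ^ 2 = c ^ 2 * ‖x‖ ^ 2 := fun c x => by
    rw [norm_smul, mul_pow, Real.norm_eq_abs, sq_abs]
  obtain ⟨K1, k1, hK1⟩ := finsler ⊤ (F := fun w => -BI w w) (G := fun w => ‖w‖ ^ 2)
    (cont2 BI continuous_id continuous_id).neg (by fun_prop) (fun c x => by rw [hs]; ring) hs'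
    (fun _ _ => sq_nonneg _) fun x _ x0 h => absurd (by simpa using h) x0
  obtain ⟨K2, k2, hK2⟩ := finsler E2 (F := fun w => -‖w‖ ^ 2) (G := fun w => BI w w)
    (by fun_prop) (cont2 BI continuous_id continuous_id) (fun c x => by rw [hs']; ring)
    (fun c x => hs _ _ _ _) (fun _ _ => pB.nn _) fun x hx x0 h => absurd h (n2 x hx x0).ne'
  refine thmB (E := E2) (fun b => BP b ∘ₗ E2.subtype)
    (fun a => LinearMap.lcomp ℝ _ E2.subtype ∘ₗ B1 a) (fun d => B2 d ∘ₗ E2.subtype)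
    (fun a d δ w => by simp [hM]) q hq hext (fun a => {v | AP a v = 0}) (fun v => AI v v) pA.nn
    (fun v => (C.flip v).compl₂ E2.subtype) y0 d0 (fun a => ⟨K1, fun d y v hv w hw => ?_⟩) ?_
    fun a => ?_
  · have hv' : AP a v = 0 := hv
    have hw' : BP (a + d) w = 0 := hw
    have h3 := lim0 (f := fun ρ => AI v v * ((q y d + ρ) * BI w w) - C y v w ^ 2) (by fun_prop)
      fun ρ h => by
        obtain ⟨s, -, H⟩ := FH a d y (q y d + ρ) (by linarith)
        simpa [hv', hw'] using H v w w.2.2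
    have h4 := mul_le_mul_of_nonneg_left (show BI w w ≤ K1 * ‖(w : V)‖ ^ 2 by
      linarith [hK1 w trivial]) (mul_nonneg (pA.nn v) (q0 y d))
    show C y v w ^ 2 ≤ K1 * AI v v * q y d * ‖(w : V)‖ ^ 2
    simp only [add_zero] at h3
    linarith
  · obtain ⟨s, s0, H⟩ := FH 0 0 y0 _ (lt_add_one _)
    obtain ⟨c, hc⟩ := dA 0
    obtain ⟨c', hc'⟩ := dB (0 + 0)
    have := q0 y0 0
    refine ⟨(s * |c| + 1) * ((s * |c'| + (q y0 0 + 1)) * K1), by positivity, fun v w => ?_⟩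
    have h3 : s * AP 0 v v + AI v v ≤ (s * |c| + 1) * AI v v := by
      have := mul_le_mul_of_nonneg_left ((hc v).trans
        (mul_le_mul_of_nonneg_right (le_abs_self c) (pA.nn v))) s0
      linarith
    have h4 : s * BP (0 + 0) w w + (q y0 0 + 1) * BI w w ≤ (s * |c'| + (q y0 0 + 1)) * BI w w := by
      have := mul_le_mul_of_nonneg_left ((hc' w).trans
        (mul_le_mul_of_nonneg_right (le_abs_self c') (pB.nn w))) s0
      linarith
    have h5 := mul_le_mul_of_nonneg_left (show BI w w ≤ K1 * ‖(w : V)‖ ^ 2 by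
      linarith [hK1 w trivial]) (show 0 ≤ s * |c'| + (q y0 0 + 1) by positivity)
    have p1 := (pBP (0 + 0)).nn w
    have p2 := pB.nn w
    have p3 := pA.nn v
    have h6 := (H v w w.2.2).trans (mul_le_mul h3 (h4.trans h5) (by positivity) (by positivity))
    show C y0 v w ^ 2 ≤ _ * AI v v * ‖(w : V)‖ ^ 2
    linarith
  obtain ⟨N, N0, hN⟩ := hd a
  refine ⟨1 / (4 * N * K2), by positivity, fun δ d0' d1 => ?_⟩
  by_contra hne
  push Not at hne
  set b := a + δ • d0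
  set τ := δ ^ 2 / (4 * N) with hτ
  have τ0 : 0 < τ := by positivity
  have F0 : ∀ v w, w ∈ E2 → AP a v = 0 → BP b w = 0 → 0 ≤ AI v v + 2 * C y0 v w + τ * BI w w := by
    intro v w hw e1 e2
    have h3 : C y0 v w ^ 2 ≤ 1 / (4 * N * K2) * δ ^ 2 * AI v v * ‖w‖ ^ 2 := hne v e1 ⟨w, hw⟩ e2
    have h4 := mul_le_mul_of_nonneg_left (show ‖w‖ ^ 2 ≤ K2 * BI w w by linarith [hK2 w hw])
      (show 0 ≤ 1 / (4 * N * K2) * δ ^ 2 * AI v v from mul_nonneg (by positivity) (pA.nn v))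
    have h5 : 1 / (4 * N * K2) * δ ^ 2 * AI v v * (K2 * BI w w) = AI v v * (τ * BI w w) := by
      rw [hτ]; field_simp
    have h6 := mul_nonneg τ0.le (pB.nn w)
    have h7 := pA.nn v
    have h8 : (2 * C y0 v w) ^ 2 ≤ (AI v v + τ * BI w w) ^ 2 := by
      nlinarith [sq_nonneg (AI v v - τ * BI w w)]
    linarith [(abs_le_of_sq_le_sq' h8 (by linarith)).1]
  have pos : ∀ x ∈ E1.prod E2, x ≠ 0 → 0 < AI x.1 x.1 + τ * BI x.2 x.2 := fun x hx x0 => by
    have p1 := pA.nn x.1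
    have p2 := pB.nn x.2
    by_cases e : x.1 = 0
    · have := n2 _ hx.2 fun e' => x0 (Prod.ext e e')
      positivity
    · have := n1 _ hx.1 e
      positivity
  have c11 := fun B : Bf V => cont2 B (continuous_fst (Y := V)) continuous_fst
  have c12 := fun B : Bf V => cont2 B (continuous_fst (Y := V)) continuous_snd
  have c22 := fun B : Bf V => cont2 B (continuous_snd (X := V)) continuous_snd
  obtain ⟨s, s0, hs1⟩ := finsler (E1.prod E2)
    (F := fun x => 2 * AI x.1 x.1 + 2 * C y0 x.1 x.2 + 2 * τ * BI x.2 x.2)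
    (G := fun x => AP a x.1 x.1 + BP b x.2 x.2)
    (((continuous_const.mul (c11 _)).add (continuous_const.mul (c12 _))).add
      (continuous_const.mul (c22 _))) ((c11 _).add (c22 _))
    (fun c x => by simp only [Prod.smul_fst, Prod.smul_snd, hs]; ring)
    (fun c x => by simp only [Prod.smul_fst, Prod.smul_snd, hs]; ring)
    (fun x _ => add_nonneg ((pAP a).nn _) ((pBP b).nn _)) fun x hx x0 h => by
      have p1 := (pAP a).nn x.1
      have p2 := (pBP b).nn x.2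
      have := F0 x.1 x.2 hx.2 ((pAP a).ker (by linarith)) ((pBP b).ker (by linarith))
      linarith [pos x hx x0]
  set α := s • AP a + (3 : ℝ) • AI with hα
  set β := s • BP b + (3 * τ) • BI with hβ
  have G1 : ∀ x ∈ E1.prod E2, AI x.1 x.1 + τ * BI x.2 x.2 ≤
      α x.1 x.1 + 2 * C y0 x.1 x.2 + β x.2 x.2 := fun x hx => by
    have := hs1 x hx
    simp only [hα, hβ, LinearMap.add_apply, LinearMap.smul_apply, smul_eq_mul]
    linarith
  obtain ⟨l, l0, hl⟩ := finsler (E1.prod E2) (F := fun x => 2 * β x.1 x.2 + C y0 x.1 x.1)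
    (G := fun x => α x.1 x.1 + 2 * C y0 x.1 x.2 + β x.2 x.2)
    ((continuous_const.mul (c12 _)).add (c11 _))
    (((c11 _).add (continuous_const.mul (c12 _))).add (c22 _))
    (fun c x => by simp only [Prod.smul_fst, Prod.smul_snd, hs]; ring)
    (fun c x => by simp only [Prod.smul_fst, Prod.smul_snd, hs]; ring)
    (fun x hx => (add_nonneg (pA.nn _) (mul_nonneg τ0.le (pB.nn _))).trans (G1 x hx))
    fun x hx x0 h => absurd h ((pos x hx x0).trans_le (G1 x hx)).ne'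
  have h3 := hN δ d0' d1 s (3 * τ) l s0 (by positivity) l0 fun x => by
    obtain ⟨u, hu, v, hv, rfl⟩ := Submodule.mem_sup.1 (h1.codisjoint.eq_top ▸ Submodule.mem_top (x := x))
    obtain ⟨z, hz, w, hw, rfl⟩ := Submodule.mem_sup.1 (h2.codisjoint.eq_top ▸ Submodule.mem_top (x := u))
    have z1 : AI z = 0 := hz.1
    have z2 : BI z = 0 := hz.2
    have w1 : AI w = 0 := by simpa [z1] using (hu : AI (z + w) = 0)
    have k0 : ∀ B : Bf V, (∀ x x', B x x' = B x' x) → B z = 0 →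
        B (z + w + v) (z + w + v) = B (l⁻¹ • l • v + w) (l⁻¹ • l • v + w) := fun B hB e => by
      rw [inv_smul_smul₀ l0.ne', add_assoc, add_comm w, map_add B z, e, zero_add, hB, map_add B z, e,
        zero_add]
    have e1 := expand (sy (pAP a) pA s 3) (sy (pBP b) pB s (3 * τ)) (sC y0) (w := w)
      (by simp [w1, kA a w w1]) (l • v) (inv_ne_zero l0.ne')
    rw [inv_inv, C0 y0 w w1, zero_add] at e1
    rw [k0 α (sy (pAP a) pA s 3) (by simp [hα, z1, kA a z z1]),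
      k0 β (sy (pBP b) pB s (3 * τ)) (by simp [hβ, z2, kB b z z2]),
      k0 _ (sC y0) (CW y0 z z1 z2), e1]
    have e2 := mul_nonneg (inv_pos.2 l0).le (hl (l • v, w) ⟨E1.smul_mem l hv, hw, w1⟩)
    have e3 : 0 ≤ β (l • v) (l • v) := add_nonneg (mul_nonneg s0.le ((pBP b).nn _))
      (mul_nonneg (by positivity) (pB.nn _))
    rw [mul_add, inv_mul_cancel_left₀ l0.ne'] at e2
    exact mul_nonneg (inv_pos.2 l0).le (add_nonneg (by linarith) (by positivity))
  rw [hτ] at h3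
  have h4 : 3 * (δ ^ 2 / (4 * N)) * N = 3 / 4 * δ ^ 2 := by field_simp
  nlinarith [pow_pos d0' 2]

end Vale.Agent.P256
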