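import Vale.Agent.P256.Poly
import Vale.Agent.P256.Red

/-! P256: the Choi-Lam form and quadratic forms of the block matrix. -/

namespace Vale.Agent.P256

open Matrix Finset

/-- the Choi-Lam biquadratic form -/
def qq (y ω : Fin 3 → ℝ) : ℝ := ω ⬝ᵥ Qm y *ᵥ ω

theorem qq_eq (y ω : Fin 3 → ℝ) : qq y ω = (y 0 ^ 2 + y 2 ^ 2) * ω 0 ^ 2 +
    (y 1 ^ 2 + y 0 ^ 2) * ω 1 ^ 2 + (y 2 ^ 2 + y 1 ^ 2) * ω 2 ^ 2 - 2 * (y 0 * y 1 * ω 0 * ω 1 +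
      y 0 * y 2 * ω 0 * ω 2 + y 1 * y 2 * ω 1 * ω 2) := by
  simp [qq, Qm, dotProduct, mulVec, Fin.sum_univ_three]
  ring

theorem amgm {a b c : ℝ} (ha : 0 < a) (hb : 0 ≤ b) (hc : 0 ≤ c) :
    0 ≤ a ^ 2 * b + b ^ 2 * c + c ^ 2 * a - 3 * (a * b * c) := by
  refine le_of_mul_le_mul_left ?_ (show 0 < a + b + c by positivity)
  have h1 := mul_nonneg (mul_nonneg ha.le hb) (sq_nonneg (a - c))
  have h2 := mul_nonneg (mul_nonneg hb hc) (sq_nonneg (b - a))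
  have h3 := mul_nonneg (mul_nonneg hc ha.le) (sq_nonneg (c - b))
  nlinarith [sq_nonneg (a * b - b * c), sq_nonneg (b * c - c * a), sq_nonneg (c * a - a * b)]

theorem qq_nn (y ω : Fin 3 → ℝ) : 0 ≤ qq y ω := by
  rw [qq_eq]
  generalize y 0 = a, y 1 = b, y 2 = c, ω 0 = u, ω 1 = v, ω 2 = w
  rcases eq_or_ne a 0 with rfl | ha
  · nlinarith [sq_nonneg (b * v - c * w), sq_nonneg (c * u), sq_nonneg (b * w)]
  have a2 : 0 < a ^ 2 := by positivity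
  have h1 : 0 < a ^ 2 + c ^ 2 := by positivity
  have h2 : 0 < a ^ 4 + b ^ 2 * c ^ 2 + a ^ 2 * c ^ 2 := by positivity
  refine le_of_mul_le_mul_left ?_ (mul_pos h1 h2)
  have h3 := mul_nonneg h2.le (sq_nonneg ((a ^ 2 + c ^ 2) * u - a * b * v - a * c * w))
  have h4 := sq_nonneg ((a ^ 4 + b ^ 2 * c ^ 2 + a ^ 2 * c ^ 2) * v -
    b * c * (2 * a ^ 2 + c ^ 2) * w)
  have h5 := mul_nonneg (mul_nonneg h1.le (amgm a2 (sq_nonneg b) (sq_nonneg c))) (sq_nonneg w)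
  have h6 := mul_nonneg h1.le h5
  nlinarith

theorem psdR {n : Type*} [Fintype n] {M : Matrix n n ℝ} :
    M.PosSemidef ↔ M.IsSymm ∧ ∀ x, 0 ≤ x ⬝ᵥ M *ᵥ x := posSemidef_iff_dotProduct_mulVec

open scoped MatrixOrder in
theorem exT (y : Fin 3 → ℝ) : ∃ T : Matrix (Fin 3) (Fin 3) ℝ, Tᵀ * T = Qm y := by
  have : (Qm y).PosSemidef := psdR.2 ⟨by
    ext i j
    fin_cases i <;> fin_cases j <;> simp [Qm], qq_nn y⟩
  obtain ⟨T, hT⟩ := CStarAlgebra.nonneg_iff_eq_star_mul_self.1 this.nonneg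
  exact ⟨T, hT.symm⟩

theorem sq0 {A c : ℝ} (h : ∀ ε : ℝ, (A * ε) ^ 2 ≤ c * ε ^ 4) : A = 0 := by
  have := lim0 (f := fun ε => c * ε ^ 2 - A ^ 2) (by fun_prop) fun ε e => by
    refine le_of_mul_le_mul_left ?_ (pow_pos e 2)
    nlinarith [h ε]
  nlinarith [sq_nonneg A]

theorem hext (l : (Fin 3 → ℝ) →ₗ[ℝ] (Fin 3 → ℝ) →ₗ[ℝ] ℝ) (c : ℝ)
    (h : ∀ y d, l y d ^ 2 ≤ c * qq y d) : l = 0 := by
  obtain ⟨M, rfl⟩ := (Matrix.toBilin' (n := Fin 3) (R₁ := ℝ)).surjective l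
  have H : ∀ a b e u v w : ℝ, (a * u * M 0 0 + a * v * M 0 1 + a * w * M 0 2 + b * u * M 1 0 +
      b * v * M 1 1 + b * w * M 1 2 + e * u * M 2 0 + e * v * M 2 1 + e * w * M 2 2) ^ 2 ≤
      c * ((a ^ 2 + e ^ 2) * u ^ 2 + (b ^ 2 + a ^ 2) * v ^ 2 + (e ^ 2 + b ^ 2) * w ^ 2 -
        2 * (a * b * u * v + a * e * u * w + b * e * v * w)) := fun a b e u v w => by
    have := h ![a, b, e] ![u, v, w]
    rw [qq_eq, Matrix.toBilin'_apply] at this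
    simp [Fin.sum_univ_three] at this
    convert this using 2
    ring
  have z : ∀ {x k : ℝ}, x ^ 2 ≤ c * k → k = 0 → x = 0 := fun h1 h2 => by
    rw [h2, mul_zero] at h1
    exact pow_eq_zero_iff two_ne_zero |>.1 (le_antisymm h1 (sq_nonneg _))
  have h1 := z (H 1 0 0 0 0 1) (by norm_num)
  have h2 := z (H 0 1 0 1 0 0) (by norm_num)
  have h3 := z (H 0 0 1 0 1 0) (by norm_num)
  have h4 := z (H 1 1 1 1 1 1) (by norm_num)
  have h5 := z (H 1 1 (-1) 1 1 (-1)) (by norm_num)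
  have h6 := z (H 1 (-1) 1 1 (-1) 1) (by norm_num)
  have h7 := z (H 1 (-1) (-1) 1 (-1) (-1)) (by norm_num)
  have a1 : M 0 2 = 0 := by linarith
  have a2 : M 1 0 = 0 := by linarith
  have a3 : M 2 1 = 0 := by linarith
  have a4 : M 0 1 = 0 := by linarith
  have a5 : M 2 0 = 0 := by linarith
  have a6 : M 1 2 = 0 := by linarith
  simp only [a1, a2, a3, a4, a5, a6] at H
  have b1 := sq0 (A := M 0 0 + M 2 2) (c := c) fun ε => by
    convert H 1 0 ε ε 0 1 using 2 <;> ring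
  have b2 := sq0 (A := M 0 0 + M 1 1) (c := c) fun ε => by
    convert H ε 1 0 1 ε 0 using 2 <;> ring
  have b3 := sq0 (A := M 1 1 + M 2 2) (c := c) fun ε => by
    convert H 0 ε 1 0 1 ε using 2 <;> ring
  have : M = 0 := by
    ext i j
    fin_cases i <;> fin_cases j <;> simp <;> linarith
  rw [this]
  exact map_zero _

def Bq (T : Matrix (Fin 3) (Fin 3) ℝ) (u : Fin 4 → ℝ) (z : Fin 3 → Fin 4 → ℝ) : ℝ :=
  ∑ m, ∑ k, T m k * (u 0 * z m k.succ - u k.succ * z m 0)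

theorem Sm_form (X Z : Matrix (Fin 4) (Fin 4) ℝ) (T : Matrix (Fin 3) (Fin 3) ℝ) (u : Fin 4 → ℝ)
    (z : Fin 3 → Fin 4 → ℝ) : Sum.elim u (fun p : Fin 4 × Fin 3 => z p.2 p.1) ⬝ᵥ Sm X Z T *ᵥ
      Sum.elim u (fun p : Fin 4 × Fin 3 => z p.2 p.1) =
      u ⬝ᵥ Z *ᵥ u + 2 * Bq T u z + ∑ m, z m ⬝ᵥ X *ᵥ z m := by
  have h1 : u ⬝ᵥ Bm T *ᵥ (fun p : Fin 4 × Fin 3 => z p.2 p.1) = Bq T u z := by
    simp [Bm, Bq, Jm, dotProduct, mulVec, Fintype.sum_prod_type, Fin.sum_univ_succ]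
    ring
  have h2 : (fun p : Fin 4 × Fin 3 => z p.2 p.1) ⬝ᵥ blockDiagonal (fun _ : Fin 3 => X) *ᵥ
      (fun p : Fin 4 × Fin 3 => z p.2 p.1) = ∑ m, z m ⬝ᵥ X *ᵥ z m := by
    simp only [dotProduct, mulVec, Fintype.sum_prod_type, blockDiagonal_apply', ite_mul, zero_mul,
      sum_ite_eq, mem_univ, if_true]
    exact sum_comm
  rw [Sm, fromBlocks_mulVec, sumElim_dotProduct_sumElim, Sum.elim_comp_inl, Sum.elim_comp_inr,
    dotProduct_add, dotProduct_add, h1, h2, mulVec_transpose, dotProduct_comm _ (u ᵥ* _),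
    ← dotProduct_mulVec, h1]
  ring

theorem Sm_psd {X Z : Matrix (Fin 4) (Fin 4) ℝ} (hX : X.IsSymm) (hZ : Z.IsSymm)
    (T : Matrix (Fin 3) (Fin 3) ℝ) : (Sm X Z T).PosSemidef ↔
      ∀ u z, 0 ≤ u ⬝ᵥ Z *ᵥ u + 2 * Bq T u z + ∑ m, z m ⬝ᵥ X *ᵥ z m := by
  rw [psdR]
  refine ⟨fun h u z => Sm_form X Z T u z ▸ h.2 _, fun h => ⟨Sm_symm hX hZ T, fun w => ?_⟩⟩
  have := h (w ∘ Sum.inl) fun m i => w (.inr (i, m))
  rw [← Sm_form] at this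
  convert this <;> exact (Sum.elim_comp_inl_inr w).symm

def Nm (b : Fin 3 → ℝ) : Matrix (Fin 3) (Fin 4) ℝ :=
  of fun k j => (if j = k.succ then 1 else 0) - if j = 0 then b k else 0

def Ml : (Fin 3 → ℝ) →ₗ[ℝ] Matrix (Fin 3) (Fin 4) ℝ where
  toFun d := of fun k j => -if j = 0 then d k else 0
  map_add' a b := by ext k j; by_cases h : j = 0 <;> simp [h]; ring
  map_smul' a b := by ext k j; by_cases h : j = 0 <;> simp [h]

def Pm (b : Fin 3 → ℝ) : Matrix (Fin 4) (Fin 4) ℝ := (Nm b)ᵀ * Nm b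

def P1 (a : Fin 3 → ℝ) : (Fin 3 → ℝ) →ₗ[ℝ] Matrix (Fin 4) (Fin 4) ℝ where
  toFun d := (Nm a)ᵀ * Ml d + (Ml d)ᵀ * Nm a
  map_add' b c := by simp only [map_add, transpose_add, Matrix.mul_add, Matrix.add_mul]; abel
  map_smul' b c := by simp

theorem Pm_add (a d : Fin 3 → ℝ) (δ : ℝ) :
    Pm (a + δ • d) = Pm a + δ • P1 a d + δ ^ 2 • ((Ml d)ᵀ * Ml d) := by
  have : Nm (a + δ • d) = Nm a + δ • Ml d := by
    ext k j; by_cases h : j = 0 <;> simp [Nm, Ml, h]; ring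
  simp only [Pm, this, P1, transpose_add, transpose_smul, Matrix.mul_add, Matrix.add_mul,
    Matrix.mul_smul, Matrix.smul_mul, LinearMap.coe_mk, AddHom.coe_mk]
  module

theorem Pm_psd (b : Fin 3 → ℝ) : (Pm b).PosSemidef := posSemidef_conjTranspose_mul_self _

theorem Pm_form (b : Fin 3 → ℝ) (u : Fin 4 → ℝ) :
    u ⬝ᵥ Pm b *ᵥ u = ∑ k, (u k.succ - b k * u 0) ^ 2 := by
  rw [Pm, ← mulVec_mulVec, dotProduct_mulVec, vecMul_transpose]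
  simp [dotProduct, mulVec, Nm, Fin.sum_univ_succ]
  ring

end Vale.Agent.P256
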