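import Vale.Agent.P256.Cl

/-! P256: the cone has no linear matrix inequality description. -/

namespace Vale.Agent.P256

open Matrix Finset

theorem Bq_smul (T : Matrix (Fin 3) (Fin 3) ℝ) (u : Fin 4 → ℝ) (z : Fin 3 → Fin 4 → ℝ)
    (a b c : ℝ) : Bq (a • T) (b • u) (c • z) = a * b * c * Bq T u z := by
  simp only [Bq, mul_sum, Matrix.smul_apply, Pi.smul_apply, smul_eq_mul]
  exact sum_congr rfl fun _ _ => sum_congr rfl fun _ _ => by ring

theorem qs (M : Matrix (Fin 4) (Fin 4) ℝ) (c : ℝ) (u : Fin 4 → ℝ) :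
    (c • u) ⬝ᵥ M *ᵥ (c • u) = c ^ 2 * (u ⬝ᵥ M *ᵥ u) := by
  rw [mulVec_smul, smul_dotProduct, dotProduct_smul, smul_eq_mul, smul_eq_mul]; ring

theorem qf (b : Fin 3 → ℝ) (s t l : ℝ) (u : Fin 4 → ℝ) :
    u ⬝ᵥ (l • (s • Pm b + t • (1 : Matrix (Fin 4) (Fin 4) ℝ))) *ᵥ u =
      l * (s * (u ⬝ᵥ Pm b *ᵥ u) + t * (u ⬝ᵥ u)) := by
  simp only [smul_mulVec, add_mulVec, one_mulVec, dotProduct_smul, dotProduct_add, smul_eq_mul]

theorem ps (b : Fin 3 → ℝ) {s t l : ℝ} (hs : 0 ≤ s) (ht : 0 ≤ t) (hl : 0 ≤ l) :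
    (l • (s • Pm b + t • (1 : Matrix (Fin 4) (Fin 4) ℝ))).PosSemidef :=
  (((Pm_psd b).smul hs).add (PosSemidef.one.smul ht)).smul hl

theorem dom (a : Fin 3 → ℝ) :
    ∃ c : ℝ, (c • (1 : Matrix (Fin 4) (Fin 4) ℝ) - Pm a).PosSemidef := by
  obtain ⟨c, -, hc⟩ := finsler ⊤ (F := fun u : Fin 4 → ℝ => -(u ⬝ᵥ Pm a *ᵥ u))
    (G := fun u => u ⬝ᵥ u) (by fun_prop) (by fun_prop) (fun c x => by rw [qs]; ring)
    (fun c x => by simpa using qs 1 c x) (fun x _ => by simpa using (psdR.1 PosSemidef.one).2 x)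
    fun x _ x0 h => absurd (dotProduct_self_eq_zero.1 h) x0
  refine ⟨c, psdR.2 ⟨(isSymm_one.smul c).sub (Pm_psd a).1, fun x => ?_⟩⟩
  have := hc x trivial
  simp only [sub_mulVec, smul_mulVec, one_mulVec, dotProduct_sub, dotProduct_smul, smul_eq_mul]
  linarith

theorem Tq {T : Matrix (Fin 3) (Fin 3) ℝ} {y : Fin 3 → ℝ} (hT : Tᵀ * T = Qm y) (d : Fin 3 → ℝ) :
    ∑ m, (T *ᵥ d) m ^ 2 = qq y d := by
  rw [qq, ← hT, ← mulVec_mulVec, dotProduct_mulVec, vecMul_transpose]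
  simp only [dotProduct, sq]

theorem Bq_ker (T : Matrix (Fin 3) (Fin 3) ℝ) {a d : Fin 3 → ℝ} {u : Fin 4 → ℝ}
    {z : Fin 3 → Fin 4 → ℝ} (hu : ∀ k, u k.succ = (a + d) k * u 0)
    (hz : ∀ m k, z m k.succ = a k * z m 0) : Bq T u z = -(u 0 * ∑ m, z m 0 * (T *ᵥ d) m) := by
  simp only [Bq, hu, hz, mulVec, dotProduct, Fin.sum_univ_three, Pi.add_apply]
  ring

theorem upper {T : Matrix (Fin 3) (Fin 3) ℝ} {y : Fin 3 → ℝ} (hT : Tᵀ * T = Qm y)
    (a d : Fin 3 → ℝ) {τ : ℝ} (h : qq y d < τ) : ∃ s : ℝ, 0 < s ∧ ∀ u z,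
    0 ≤ s * (u ⬝ᵥ Pm (a + d) *ᵥ u) + τ * (u ⬝ᵥ u) + 2 * Bq T u z +
      ∑ m, (s * (z m ⬝ᵥ Pm a *ᵥ z m) + 1 * (z m ⬝ᵥ z m)) := by
  have n0 := fun b u => (psdR.1 (Pm_psd b)).2 u
  have k0 : ∀ b u, u ⬝ᵥ Pm b *ᵥ u = 0 → ∀ k : Fin 3, u k.succ = b k * u 0 := fun b u e k => by
    rw [Pm_form, sum_eq_zero_iff_of_nonneg fun _ _ => sq_nonneg _] at e
    exact sub_eq_zero.1 (pow_eq_zero_iff two_ne_zero |>.1 (e k (mem_univ k)))
  have k1 : ∀ u : Fin 4 → ℝ, u 0 ^ 2 ≤ u ⬝ᵥ u := fun u => by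
    simpa only [dotProduct, sq] using
      single_le_sum (f := fun i => u i * u i) (fun i _ => mul_self_nonneg _) (mem_univ 0)
  obtain ⟨s, s0, hs⟩ := finsler ⊤ (E := (Fin 4 → ℝ) × (Fin 3 → Fin 4 → ℝ))
    (F := fun x => τ * (x.1 ⬝ᵥ x.1) + 2 * Bq T x.1 x.2 + ∑ m, x.2 m ⬝ᵥ x.2 m)
    (G := fun x => x.1 ⬝ᵥ Pm (a + d) *ᵥ x.1 + ∑ m, x.2 m ⬝ᵥ Pm a *ᵥ x.2 m)
    (by unfold Bq; fun_prop) (by fun_prop) (fun c x => by
      have := Bq_smul T x.1 x.2 1 c c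
      rw [one_smul] at this
      simp only [Prod.smul_fst, Prod.smul_snd, this, Pi.smul_apply, smul_dotProduct,
        dotProduct_smul, smul_eq_mul, ← mul_sum]
      ring) (fun c x => by
      simp only [Prod.smul_fst, Prod.smul_snd, Pi.smul_apply, qs, ← mul_sum]
      ring) (fun x _ => add_nonneg (n0 _ _) (sum_nonneg fun _ _ => n0 _ _)) fun x _ x0 e => by
      have e1 := n0 (a + d) x.1
      have e2 : 0 ≤ ∑ m, x.2 m ⬝ᵥ Pm a *ᵥ x.2 m := sum_nonneg fun _ _ => n0 _ _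
      have hu := k0 (a + d) x.1 (by linarith)
      have hz := fun m => k0 a (x.2 m) ((sum_eq_zero_iff_of_nonneg fun _ _ => n0 _ _).1
        (show ∑ m, x.2 m ⬝ᵥ Pm a *ᵥ x.2 m = 0 by linarith) m (mem_univ m))
      have e3 := Tq hT d
      have e4 := mul_le_mul_of_nonneg_left (k1 x.1) ((qq_nn y d).trans h.le)
      rw [Bq_ker T hu hz]
      simp only [Fin.sum_univ_three] at e3 ⊢
      have f0 := k1 (x.2 0)
      have f1 := k1 (x.2 1)
      have f2 := k1 (x.2 2)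
      have g0 := sq_nonneg (x.2 0 0 - x.1 0 * (T *ᵥ d) 0)
      have g1 := sq_nonneg (x.2 1 0 - x.1 0 * (T *ᵥ d) 1)
      have g2 := sq_nonneg (x.2 2 0 - x.1 0 * (T *ᵥ d) 2)
      by_cases c : x.1 0 = 0
      · have u0 : x.1 = 0 := funext fun i => Fin.cases c (fun k => by simp [hu, c]) i
        have : 0 < ∑ m, x.2 m ⬝ᵥ x.2 m := by
          refine (sum_nonneg fun m _ => (sq_nonneg _).trans (k1 _)).lt_of_ne' fun e' => x0 ?_
          exact Prod.ext u0 (funext fun m => dotProduct_self_eq_zero.1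
            ((sum_eq_zero_iff_of_nonneg fun m _ => (sq_nonneg _).trans (k1 _)).1 e' m (mem_univ m)))
        simpa [u0, Fin.sum_univ_three] using this
      · have := mul_pos (sub_pos.2 h) (show 0 < x.1 0 ^ 2 by positivity)
        rw [← e3] at this
        linarith
  refine ⟨s, s0, fun u z => ?_⟩
  have := hs (u, z) trivial
  simp only [sum_add_distrib, ← mul_sum] at this ⊢
  linarith

theorem lower {T : Matrix (Fin 3) (Fin 3) ℝ} {y d : Fin 3 → ℝ} (hT : Tᵀ * T = Qm y)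
    (h1 : qq y d = 1) (a : Fin 3 → ℝ) {δ s t l : ℝ} (l0 : 0 < l) (h : ∀ u z,
      0 ≤ l⁻¹ * (s * (u ⬝ᵥ Pm (a + δ • d) *ᵥ u) + t * (u ⬝ᵥ u)) + 2 * Bq T u z +
      ∑ m, l * (s * (z m ⬝ᵥ Pm a *ᵥ z m) + 3 * (z m ⬝ᵥ z m))) :
    δ ^ 2 ≤ t * (1 + (a + δ • d) ⬝ᵥ (a + δ • d)) * (3 * (1 + a ⬝ᵥ a)) := by
  have e1 := (Tq hT d).trans h1
  have k : ∀ b : Fin 3 → ℝ, (Fin.cons 1 b : Fin 4 → ℝ) ⬝ᵥ Pm b *ᵥ Fin.cons 1 b = 0 ∧
      (Fin.cons 1 b : Fin 4 → ℝ) ⬝ᵥ Fin.cons 1 b = 1 + b ⬝ᵥ b := fun b =>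
    ⟨by simp [Pm_form], by simp [dotProduct, Fin.sum_univ_succ]⟩
  have := cs2 (A := l⁻¹ * (t * (1 + (a + δ • d) ⬝ᵥ (a + δ • d))))
    (b := l * (3 * (1 + a ⬝ᵥ a))) (c := -δ) fun r => by
      have := h (Fin.cons 1 (a + δ • d)) fun m => (r * (T *ᵥ d) m) • (Fin.cons 1 a : Fin 4 → ℝ)
      rw [Bq_ker T (a := a) (d := δ • d) (fun k => by simp) (fun m k => by simp [mul_comm]),
        mulVec_smul T] at this
      simp only [k, Fin.cons_zero, mulVec_smul, smul_dotProduct, dotProduct_smul,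
        Fin.sum_univ_three, Pi.smul_apply, smul_eq_mul] at this e1
      refine this.trans_eq ?_
      linear_combination (r ^ 2 * (l * (3 * (1 + a ⬝ᵥ a))) - 2 * r * δ) * e1
  rwa [mul_mul_mul_comm, inv_mul_cancel₀ l0.ne', one_mul, neg_sq] at this

theorem sy {n : Type*} [Fintype n] {M : Matrix n n ℝ} (h : M.PosSemidef) : M.IsSymm :=
  (psdR.1 h).1

theorem core {m : ℕ} (A0 : Matrix (Fin m) (Fin m) ℝ)
    (LX LZ : Matrix (Fin 4) (Fin 4) ℝ →ₗ[ℝ] Matrix (Fin m) (Fin m) ℝ)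
    (LY : (Fin 3 → ℝ) →ₗ[ℝ] Matrix (Fin m) (Fin m) ℝ) (sX : ∀ X, (LX X).IsSymm)
    (sZ : ∀ X, (LZ X).IsSymm) (sY : ∀ y, (LY y).IsSymm)
    (h : ∀ X Z y T, X.PosSemidef → Z.IsSymm → Tᵀ * T = Qm y →
      ((A0 + (LX X + LZ Z + LY y)).PosSemidef ↔ (Sm X Z T).PosSemidef)) : False := by
  have q0 : (0 : Matrix (Fin 3) (Fin 3) ℝ)ᵀ * 0 = Qm (0 : Fin 3 → ℝ) := by
    ext i j
    fin_cases i <;> fin_cases j <;> simp [Qm]
  have h0 : A0.PosSemidef := by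
    simpa using (h 0 0 0 0 PosSemidef.zero isSymm_zero q0).2
      ((Sm_psd isSymm_zero isSymm_zero 0).2 fun u z => by simp [Bq])
  have H : ∀ X Z y T, X.PosSemidef → Z.IsSymm → Tᵀ * T = Qm y →
      ((∀ x, 0 ≤ toBilin' (LX X) x x + toBilin' (LZ Z) x x + toBilin' (LY y) x x) ↔
      ∀ u z, 0 ≤ u ⬝ᵥ Z *ᵥ u + 2 * Bq T u z + ∑ m, z m ⬝ᵥ X *ᵥ z m) := by
    intro X Z y T hX hZ hT
    simp only [toBilin'_apply', ← dotProduct_add, ← add_mulVec]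
    refine ⟨fun e => (Sm_psd (sy hX) hZ T).1 ((h X Z y T hX hZ hT).1 (h0.add
      (psdR.2 ⟨((sX _).add (sZ _)).add (sY _), e⟩))), fun e x => ?_⟩
    have := lim0 (f := fun ρ => ρ * (x ⬝ᵥ A0 *ᵥ x) + x ⬝ᵥ (LX X + LZ Z + LY y) *ᵥ x)
      (by fun_prop) fun ρ r0 => by
        have r1 := (inv_pos.2 r0).le
        have := (psdR.1 ((h (ρ⁻¹ • X) (ρ⁻¹ • Z) (ρ⁻¹ • y) (ρ⁻¹ • T) (hX.smul r1) (hZ.smul _) (by
          rw [transpose_smul, Matrix.smul_mul, Matrix.mul_smul, hT]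
          ext i j
          fin_cases i <;> fin_cases j <;> simp [Qm] <;> ring)).2
          ((Sm_psd (sy (hX.smul r1)) (hZ.smul _) _).2 fun u z => by
            have e1 := Bq_smul T u z ρ⁻¹ 1 1
            have e2 := mul_nonneg r1 (e u z)
            simp only [one_smul] at e1
            simp only [e1, smul_mulVec, dotProduct_smul, smul_eq_mul, ← mul_sum]
            linarith))).2 x
        rw [map_smul, map_smul, map_smul, ← smul_add, ← smul_add, add_mulVec, dotProduct_add,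
          smul_mulVec, dotProduct_smul, smul_eq_mul] at this
        have e3 := mul_nonneg r0.le this
        rwa [mul_add, mul_inv_cancel_left₀ r0.ne'] at e3
    simpa using this
  have sb : ∀ M : Matrix (Fin m) (Fin m) ℝ, M.IsSymm → ∀ x x',
      toBilin' M x x' = toBilin' M x' x := fun M hM x x' => by
    rw [toBilin'_apply', toBilin'_apply', dotProduct_mulVec, dotProduct_comm, ← mulVec_transpose,
      hM.eq]
  have pX : ∀ X, X.PosSemidef → ∀ x, 0 ≤ toBilin' (LX X) x x := fun X hX x => by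
    simpa using (H X 0 0 0 hX isSymm_zero q0).2 (fun u z => by
      simpa [Bq] using sum_nonneg fun m _ => (psdR.1 hX).2 (z m)) x
  have pZ : ∀ X, X.PosSemidef → ∀ x, 0 ≤ toBilin' (LZ X) x x := fun X hX x => by
    simpa using (H 0 X 0 0 PosSemidef.zero (sy hX) q0).2 (fun u z => by
      simpa [Bq] using (psdR.1 hX).2 u) x
  choose T hT using exT
  refine thmA (Y := Fin 3 → ℝ) (toBilin' (LX 1)) (toBilin' (LZ 1)) (fun a => toBilin' (LX (Pm a)))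
    (fun a => toBilin' (LZ (Pm a))) (toBilin'.toLinearMap ∘ₗ LY)
    (fun a => toBilin'.toLinearMap ∘ₗ LZ ∘ₗ P1 a) (fun d => toBilin' (LZ ((Ml d)ᵀ * Ml d)))
    ⟨sb _ (sX _), pX _ PosSemidef.one⟩ ⟨sb _ (sZ _), pZ _ PosSemidef.one⟩
    (fun a => ⟨sb _ (sX _), pX _ (Pm_psd a)⟩) (fun a => ⟨sb _ (sZ _), pZ _ (Pm_psd a)⟩)
    (fun y => sb _ (sY y)) (fun a => ?_) (fun a => ?_) (fun a d δ => by simp [Pm_add]) qq
    (fun y d δ => by simp only [qq_eq, Pi.smul_apply, smul_eq_mul]; ring) qq_nn hext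
    (fun a d y τ e => ?_) ![1, 0, 0] ![1, 0, 0] fun a => ?_
  · obtain ⟨c, hc⟩ := dom a
    exact ⟨c, fun x => by simpa using pX _ hc x⟩
  · obtain ⟨c, hc⟩ := dom a
    exact ⟨c, fun x => by simpa using pZ _ hc x⟩
  · obtain ⟨s, s0, hs⟩ := upper (hT y) a d e
    refine ⟨s, s0.le, fun l l0 x => ?_⟩
    have := (H _ _ y (T y) (ps a s0.le zero_le_one l0.le)
      (sy (ps (a + d) s0.le ((qq_nn y d).trans e.le) (inv_pos.2 l0).le)) (hT y)).2 (fun u z => by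
        have e1 := mul_nonneg (inv_pos.2 l0).le (hs u (l • z))
        have e2 := Bq_smul (T y) u z 1 1 l
        simp only [one_smul] at e2
        simp only [qf]
        simp only [Pi.smul_apply, qs] at e1
        simp only [e2, smul_dotProduct, dotProduct_smul, smul_eq_mul,
          Fin.sum_univ_three] at e1 ⊢
        refine e1.trans_eq ?_
        field_simp) x
    simp only [map_smul, map_add, one_smul] at this
    exact this
  · have e2 : 0 ≤ a ⬝ᵥ a := sum_nonneg fun _ _ => mul_self_nonneg _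
    refine ⟨9 * (1 + a ⬝ᵥ a) ^ 2, by positivity, fun δ d0 d1 s t l s0 t0 l0 e => ?_⟩
    have := (H _ _ _ _ (ps a s0.le (by norm_num : (0 : ℝ) ≤ 3) l0.le)
      (sy (ps (a + δ • ![1, 0, 0]) s0.le t0.le (inv_pos.2 l0).le)) (hT ![1, 0, 0])).1
      fun x => by simp only [map_smul, map_add]; exact e x
    simp only [qf] at this
    have e3 : 1 + (a + δ • ![1, 0, 0]) ⬝ᵥ (a + δ • ![1, 0, 0]) ≤ 3 * (1 + a ⬝ᵥ a) := by
      simp [dotProduct, Fin.sum_univ_three]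
      nlinarith [sq_nonneg (a 0 - δ), sq_nonneg (a 0), sq_nonneg (a 1), sq_nonneg (a 2)]
    have e4 := mul_le_mul_of_nonneg_left e3 (show 0 ≤ t * (3 * (1 + a ⬝ᵥ a)) by positivity)
    linarith [lower (hT _) (by simp [qq_eq]) a l0 this]

end Vale.Agent.P256
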