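import Mathlib

/-! P256: a compactness lemma for quadratic functions, and the perturbation argument. -/

namespace Vale.Agent.P256

open Set Filter Topology

theorem finsler {E : Type*} [NormedAddCommGroup E] [NormedSpace ℝ E] [FiniteDimensional ℝ E]
    (S : Submodule ℝ E) {F G : E → ℝ} (cF : Continuous F) (cG : Continuous G)
    (hF : ∀ (c : ℝ) x, F (c • x) = c ^ 2 * F x) (hG : ∀ (c : ℝ) x, G (c • x) = c ^ 2 * G x)
    (G0 : ∀ x ∈ S, 0 ≤ G x) (h : ∀ x ∈ S, x ≠ 0 → G x = 0 → 0 < F x) :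
    ∃ s : ℝ, 0 < s ∧ ∀ x ∈ S, 0 ≤ F x + s * G x := by
  have hc : IsCompact (Metric.sphere (0 : E) 1 ∩ S) :=
    (isCompact_sphere 0 1).inter_right S.closed_of_finiteDimensional
  obtain ⟨k, hk⟩ := hc.elim_directed_cover (fun k : ℕ => {x | 0 < F x + k * max (G x) 0})
    (fun k => isOpen_lt continuous_const (by fun_prop)) (fun x hx => by
      have x0 : x ≠ 0 := by rintro rfl; simpa using hx.1
      rcases (G0 x hx.2).eq_or_lt with h0 | h0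
      · exact mem_iUnion.2 ⟨0, by simpa using h x hx.2 x0 h0.symm⟩
      · obtain ⟨k, hk⟩ := exists_nat_gt (-F x / G x)
        rw [div_lt_iff₀ h0] at hk
        exact mem_iUnion.2 ⟨k, by rw [mem_ofPred_eq, max_eq_left h0.le]; linarith⟩)
    (directed_of_isDirected_le fun a b hab x hx => by
      have : (a : ℝ) * max (G x) 0 ≤ b * max (G x) 0 :=
        mul_le_mul_of_nonneg_right (by exact_mod_cast hab) (le_max_right _ _)
      simp only [mem_ofPred_eq] at hx ⊢; linarith)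
  refine ⟨k + 1, by positivity, fun x hx => ?_⟩
  rcases eq_or_ne x 0 with rfl | x0
  · have h1 := hF 0 0
    have h2 := hG 0 0
    simp only [zero_smul] at h1 h2
    rw [h1, h2]; simp
  · have n0 : 0 < ‖x‖ := norm_pos_iff.2 x0
    have m := S.smul_mem ‖x‖⁻¹ hx
    have h1 : 0 < F _ + k * max (G _) 0 := hk ⟨(show ‖x‖⁻¹ • x ∈ Metric.sphere (0 : E) 1 by
      simp [norm_smul, n0.ne']), m⟩
    rw [max_eq_left (G0 _ m), hF, hG, mul_left_comm, ← mul_add] at h1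
    have h2 := (mul_pos_iff_of_pos_left (by positivity)).1 h1
    have := G0 x hx
    nlinarith

theorem ginv {E E' : Type*} [AddCommGroup E] [Module ℝ E] [AddCommGroup E'] [Module ℝ E']
    (M : E →ₗ[ℝ] E') : ∃ Γ : E' →ₗ[ℝ] E, ∀ w, M (Γ (M w)) = M w := by
  obtain ⟨g, hg⟩ := M.rangeRestrict.exists_rightInverse_of_surjective M.range_rangeRestrict
  obtain ⟨Γ, hΓ⟩ := LinearMap.exists_extend g
  refine ⟨Γ, fun w => ?_⟩
  have h1 := LinearMap.congr_fun hΓ (M.rangeRestrict w)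
  have h2 := congrArg Subtype.val (LinearMap.congr_fun hg (M.rangeRestrict w))
  exact (congrArg M h1).trans h2

theorem bnd {E : Type*} [NormedAddCommGroup E] [NormedSpace ℝ E] [FiniteDimensional ℝ E]
    (A : E →ₗ[ℝ] E) : ∃ K : ℝ, 0 < K ∧ ∀ w, ‖A w‖ ≤ K * ‖w‖ :=
  (LinearMap.toContinuousLinearMap A).bound

theorem thmB {Y E E' V : Type*} [AddCommGroup Y] [Module ℝ Y] [NormedAddCommGroup E]
    [NormedSpace ℝ E] [FiniteDimensional ℝ E] [AddCommGroup E'] [Module ℝ E']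
    (M : Y → E →ₗ[ℝ] E') (M1 : Y → Y →ₗ[ℝ] E →ₗ[ℝ] E') (M2 : Y → E →ₗ[ℝ] E')
    (hM : ∀ a d (δ : ℝ) w, M (a + δ • d) w = M a w + δ • M1 a d w + δ ^ 2 • M2 d w)
    (q : Y → Y → ℝ) (hq : ∀ y d (δ : ℝ), q y (δ • d) = δ ^ 2 * q y d)
    (hext : ∀ (l : Y →ₗ[ℝ] Y →ₗ[ℝ] ℝ) (c : ℝ), (∀ y d, l y d ^ 2 ≤ c * q y d) → l = 0)
    (S : Y → Set V) (g : V → ℝ) (hg : ∀ v, 0 ≤ g v) (C : V → Y →ₗ[ℝ] E →ₗ[ℝ] ℝ) (y0 d0 : Y)
    (hU : ∀ a, ∃ K : ℝ, ∀ d y, ∀ v ∈ S a, ∀ w, M (a + d) w = 0 →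
      C v y w ^ 2 ≤ K * g v * q y d * ‖w‖ ^ 2)
    (hB : ∃ K : ℝ, 0 ≤ K ∧ ∀ v w, C v y0 w ^ 2 ≤ K * g v * ‖w‖ ^ 2)
    (hL : ∀ a, ∃ c : ℝ, 0 < c ∧ ∀ δ : ℝ, 0 < δ → δ ≤ 1 → ∃ v ∈ S a, ∃ w, M (a + δ • d0) w = 0 ∧
      c * δ ^ 2 * g v * ‖w‖ ^ 2 < C v y0 w ^ 2) : False := by
  obtain ⟨a, ha⟩ : ∃ a, ∀ b, Module.finrank ℝ (LinearMap.ker (M a)) ≤
      Module.finrank ℝ (LinearMap.ker (M b)) :=
    ⟨Function.argmin (fun a => Module.finrank ℝ (LinearMap.ker (M a))), fun b =>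
      Function.argmin_le (fun a => Module.finrank ℝ (LinearMap.ker (M a))) b⟩
  obtain ⟨Γ, hΓ⟩ := ginv (M a)
  obtain ⟨K, hK⟩ := hU a
  have hπ : ∀ w, M a (w - Γ (M a w)) = 0 := fun w => by rw [map_sub, hΓ, sub_self]
  have h0 : ∀ y, ∀ v ∈ S a, ∀ w, M a w = 0 → C v y w = 0 := fun y v hv w hw => by
    have h1 := hK 0 y v hv w (by rwa [add_zero])
    have h2 := hq y 0 0
    rw [zero_smul] at h2
    rw [h2] at h1
    simpa using h1
  have hr : ∀ d (δ : ℝ) w, M (a + δ • d) w = 0 →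
      Γ (M a w) = -δ • (Γ (M1 a d w) + δ • Γ (M2 d w)) := fun d δ w hw => by
    rw [hM, add_assoc, add_eq_zero_iff_eq_neg] at hw
    rw [hw, map_neg, map_add, map_smul, map_smul]; module
  have hC : ∀ y d (δ : ℝ), ∀ v ∈ S a, ∀ w, M (a + δ • d) w = 0 →
      C v y w = -δ * C v y (Γ (M1 a d w) + δ • Γ (M2 d w)) := fun y d δ v hv w hw => by
    have h1 := h0 y v hv _ (hπ w)
    rw [map_sub, sub_eq_zero, hr d δ w hw, map_smul] at h1
    exact h1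
  have hn : ∀ d, ∃ L : ℝ, 0 < L ∧ ∀ δ : ℝ, 0 < δ → δ ≤ 1 → ∀ w, M (a + δ • d) w = 0 →
      ‖Γ (M a w)‖ ≤ L * δ * ‖w‖ := fun d => by
    obtain ⟨K1, k1, h1⟩ := bnd (Γ ∘ₗ M1 a d)
    obtain ⟨K2, k2, h2⟩ := bnd (Γ ∘ₗ M2 d)
    refine ⟨K1 + K2, by positivity, fun δ d0 d1 w hw => ?_⟩
    have h3 := norm_add_le (Γ (M1 a d w)) (δ • Γ (M2 d w))
    rw [norm_smul, Real.norm_of_nonneg d0.le] at h3
    rw [hr d δ w hw, norm_smul, norm_neg, Real.norm_of_nonneg d0.le]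
    have h4 : ‖Γ (M1 a d w)‖ ≤ K1 * ‖w‖ := h1 w
    have h5 : ‖Γ (M2 d w)‖ ≤ K2 * ‖w‖ := h2 w
    have h6 := mul_le_of_le_one_left (norm_nonneg (Γ (M2 d w))) d1
    nlinarith
  have hl : ∀ v ∈ S a, ∀ w0, M a w0 = 0 → ∀ y d, C v y (Γ (M1 a d w0)) = 0 := by
    intro v hv w0 hw0
    suffices H : ∀ y d, C v y (Γ (M1 a d w0)) ^ 2 ≤ K * g v * ‖w0‖ ^ 2 * q y d from fun y d =>
      LinearMap.congr_fun₂ (hext ((C v).compl₂ (Γ ∘ₗ (M1 a).flip w0)) _ H) y d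
    intro y d
    obtain ⟨L, l0, hL⟩ := hn d
    have ex : ∀ δ : ℝ, ∃ w, 0 < δ → δ ≤ 1 → L * δ ≤ 1 / 2 →
        M (a + δ • d) w = 0 ∧ w - Γ (M a w) = w0 := fun δ => by
      by_cases hδ : 0 < δ ∧ δ ≤ 1 ∧ L * δ ≤ 1 / 2
      swap
      · exact ⟨0, fun h1 h2 h3 => absurd ⟨h1, h2, h3⟩ hδ⟩
      let f : LinearMap.ker (M (a + δ • d)) →ₗ[ℝ] LinearMap.ker (M a) :=
        ((LinearMap.id - Γ ∘ₗ M a).domRestrict _).codRestrict _ fun w => hπ w
      have inj : Function.Injective f := by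
        refine (injective_iff_map_eq_zero f).2 fun w hw => Subtype.ext ?_
        have h1 : (w : E) - Γ (M a w) = 0 := congrArg Subtype.val hw
        have h2 := hL δ hδ.1 hδ.2.1 w w.2
        rw [← sub_eq_zero.1 h1] at h2
        have := norm_nonneg (w : E)
        exact norm_le_zero_iff.1 (by nlinarith [hδ.2.2])
      obtain ⟨w, hw⟩ := (LinearMap.injective_iff_surjective_of_finrank_eq_finrank
        (le_antisymm (LinearMap.finrank_le_finrank_of_injective inj) (ha _))).1 inj ⟨w0, hw0⟩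
      exact ⟨w, fun _ _ _ => ⟨w.2, congrArg Subtype.val hw⟩⟩
    choose w hw using ex
    have t0 : Tendsto (fun δ : ℝ => δ) (𝓝[>] 0) (𝓝 0) := nhdsWithin_le_nhds
    have ev : ∀ᶠ δ : ℝ in 𝓝[>] 0, 0 < δ ∧ δ ≤ 1 ∧ L * δ ≤ 1 / 2 :=
      Eventually.and (self_mem_nhdsWithin : ∀ᶠ δ : ℝ in 𝓝[>] 0, 0 < δ)
        ((t0.eventually (ge_mem_nhds zero_lt_one)).and
          ((t0.const_mul L).eventually (ge_mem_nhds (by norm_num))))
    have tw : Tendsto w (𝓝[>] 0) (𝓝 w0) := by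
      rw [tendsto_iff_norm_sub_tendsto_zero]
      refine squeeze_zero' (Eventually.of_forall fun _ => norm_nonneg _) (ev.mono fun δ h => ?_)
        (by simpa using t0.const_mul (2 * L * ‖w0‖))
      obtain ⟨h1, h2⟩ := hw δ h.1 h.2.1 h.2.2
      have h3 := hL δ h.1 h.2.1 _ h1
      have h4 : w δ - w0 = Γ (M a (w δ)) := by rw [← h2]; abel
      have h5 := norm_le_norm_add_norm_sub' (w δ) w0
      rw [h4] at h5 ⊢
      have h6 := norm_nonneg (w δ)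
      have h7 : ‖w δ‖ ≤ 2 * ‖w0‖ := by nlinarith [h.2.2]
      have := mul_le_mul_of_nonneg_left h7 (mul_pos l0 h.1).le
      linarith
    have c1 := (C v y ∘ₗ Γ ∘ₗ M1 a d).continuous_of_finiteDimensional
    have c2 := (C v y ∘ₗ Γ ∘ₗ M2 d).continuous_of_finiteDimensional
    have t1 := (((c1.tendsto w0).comp tw).add (t0.mul ((c2.tendsto w0).comp tw))).pow 2
    have t2 := (tw.norm.pow 2).const_mul (K * g v * q y d)
    have := le_of_tendsto_of_tendsto t1 t2 (ev.mono fun δ h => by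
      obtain ⟨h1, -⟩ := hw δ h.1 h.2.1 h.2.2
      have h3 := hK _ y v hv _ h1
      rw [hC y d δ v hv _ h1, hq, map_add, map_smul] at h3
      refine le_of_mul_le_mul_left ?_ (pow_pos h.1 2)
      simp only [Function.comp, LinearMap.comp_apply, smul_eq_mul] at h3 ⊢
      linarith)
    simp only [zero_mul, add_zero, LinearMap.comp_apply] at this
    linarith
  obtain ⟨c, c0, hc⟩ := hL a
  obtain ⟨B, B0, hB⟩ := hB
  obtain ⟨L, l0, hL⟩ := hn d0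
  obtain ⟨K1, k1, h1⟩ := bnd (Γ ∘ₗ M1 a d0)
  obtain ⟨K2, k2, h2⟩ := bnd (Γ ∘ₗ M2 d0)
  set T := B * (K1 * L + K2) ^ 2 with hT
  have T0 : 0 ≤ T := by positivity
  have d0' : 0 < c / (c + T) := by positivity
  have d1 : c / (c + T) ≤ 1 := (div_le_one (by positivity)).2 (by linarith)
  have d2 : c / (c + T) * T ≤ c := by
    rw [div_mul_eq_mul_div, div_le_iff₀ (by positivity)]; nlinarith
  generalize c / (c + T) = δ at d0' d1 d2
  obtain ⟨v, hv, w, hw, hlt⟩ := hc δ d0' d1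
  have e1 := hl v hv _ (hπ w) y0 d0
  rw [map_sub, map_sub, map_sub, sub_eq_zero] at e1
  rw [hC y0 d0 δ v hv w hw, map_add, e1, ← map_add, mul_pow, neg_sq] at hlt
  have e2 := hB v (Γ (M1 a d0 (Γ (M a w))) + δ • Γ (M2 d0 w))
  have e3 : ‖Γ (M1 a d0 (Γ (M a w))) + δ • Γ (M2 d0 w)‖ ≤ δ * (K1 * L + K2) * ‖w‖ := by
    refine (norm_add_le _ _).trans ?_
    rw [norm_smul, Real.norm_of_nonneg d0'.le]
    have h4 : ‖Γ (M1 a d0 (Γ (M a w)))‖ ≤ K1 * ‖Γ (M a w)‖ := h1 _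
    have h5 : ‖Γ (M2 d0 w)‖ ≤ K2 * ‖w‖ := h2 w
    have h6 := mul_le_mul_of_nonneg_left (hL δ d0' d1 w hw) k1.le
    nlinarith
  have e4 := mul_le_mul_of_nonneg_left (pow_le_pow_left₀ (norm_nonneg _) e3 2)
    (mul_nonneg B0 (hg v))
  have e5 : 0 ≤ g v * ‖w‖ ^ 2 := mul_nonneg (hg v) (sq_nonneg _)
  have e6 : δ * (δ * T) ≤ c := by nlinarith [mul_nonneg d0'.le T0]
  have e7 := mul_le_mul_of_nonneg_right e6 e5
  have e8 := mul_le_mul_of_nonneg_left ((e2.trans e4).trans (show _ ≤ c * (g v * ‖w‖ ^ 2) by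
    rw [hT] at e7; linarith)) (sq_nonneg δ)
  linarith

end Vale.Agent.P256
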