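import Vale.Agent.P256.Core

/-! P256: coordinates and the final assembly. -/

namespace Vale.Agent.P256

open Matrix Finset

abbrev Sg := (Fin 4 × Fin 4) ⊕ (Fin 4 × Fin 4) ⊕ Fin 3

noncomputable def eq35 : Sg ≃ Fin 35 := Fintype.equivFinOfCardEq (by simp)

section
variable {R : Type*}

noncomputable def Xm (ξ : Fin 35 → R) : Matrix (Fin 4) (Fin 4) R :=
  of fun i j => ξ (eq35 (.inl (min i j, max i j)))

noncomputable def Zm (ξ : Fin 35 → R) : Matrix (Fin 4) (Fin 4) R :=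
  of fun i j => ξ (eq35 (.inr (.inl (min i j, max i j))))

noncomputable def ym (ξ : Fin 35 → R) : Fin 3 → R := fun k => ξ (eq35 (.inr (.inr k)))

theorem Xm_symm (ξ : Fin 35 → R) : (Xm ξ).IsSymm := by
  ext i j; simp [Xm, min_comm, max_comm]

theorem Zm_symm (ξ : Fin 35 → R) : (Zm ξ).IsSymm := by
  ext i j; simp [Zm, min_comm, max_comm]

end

noncomputable def emb : (Matrix (Fin 4) (Fin 4) ℝ × Matrix (Fin 4) (Fin 4) ℝ × (Fin 3 → ℝ)) →ₗ[ℝ]
    (Fin 35 → ℝ) where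
  toFun v i := Sum.elim (fun p => v.1 p.1 p.2) (Sum.elim (fun p => v.2.1 p.1 p.2) v.2.2)
    (eq35.symm i)
  map_add' v w := by ext i; rcases h : eq35.symm i with _ | _ | _ <;> simp [h]
  map_smul' c v := by ext i; rcases h : eq35.symm i with _ | _ | _ <;> simp [h]

theorem mm {X : Matrix (Fin 4) (Fin 4) ℝ} (hX : X.IsSymm) (i j : Fin 4) :
    X (min i j) (max i j) = X i j := by
  rcases le_total i j with h | h
  · rw [min_eq_left h, max_eq_right h]
  · rw [min_eq_right h, max_eq_left h, hX.apply]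

theorem Xm_emb {X : Matrix (Fin 4) (Fin 4) ℝ} (hX : X.IsSymm) (Z y) : Xm (emb (X, Z, y)) = X := by
  ext i j; simp [Xm, emb, mm hX]

theorem Zm_emb {Z : Matrix (Fin 4) (Fin 4) ℝ} (hZ : Z.IsSymm) (X y) : Zm (emb (X, Z, y)) = Z := by
  ext i j; simp [Zm, emb, mm hZ]

theorem ym_emb (X Z y) : ym (emb (X, Z, y)) = y := by
  ext i; simp [ym, emb]

noncomputable def pol : MvPolynomial (Fin 35) ℝ :=
  Pf (Xm MvPolynomial.X) (Zm MvPolynomial.X) (ym MvPolynomial.X)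

noncomputable def e0 : Fin 35 → ℝ := emb (1, 1, 0)

theorem pol_hom : pol.IsHomogeneous 20 :=
  Pf_hom (fun _ _ => MvPolynomial.isHomogeneous_X _ _) (fun _ _ => MvPolynomial.isHomogeneous_X _ _)
    fun _ => MvPolynomial.isHomogeneous_X _ _

theorem pol_ev {S : Type*} [CommRing S] [Algebra ℝ S] (t : S) (x : Fin 35 → ℝ) :
    MvPolynomial.aeval (fun i => t * algebraMap ℝ S (e0 i) - algebraMap ℝ S (x i)) pol =
      Pf (t • 1 - (Xm x).map (algebraMap ℝ S)) (t • 1 - (Zm x).map (algebraMap ℝ S))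
        fun i => -algebraMap ℝ S (ym x i) := by
  have h1 := fun i j => congrFun (congrFun (Xm_emb isSymm_one 1 0) i) j
  have h2 := fun i j => congrFun (congrFun (Zm_emb isSymm_one 1 0) i) j
  have h3 := congrFun (ym_emb 1 1 0)
  rw [pol, ← RingHom.coe_coe, map_Pf]
  simp only [Xm, Zm, ym, of_apply] at h1 h2 h3
  congr 1
  · ext i j
    simp [Xm, e0, h1, one_apply, apply_ite (algebraMap ℝ S)]
  · ext i j
    simp [Zm, e0, h2, one_apply, apply_ite (algebraMap ℝ S)]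
  · ext i
    simp [ym, e0, h3]

theorem pol_ev' (t : ℝ) (x : Fin 35 → ℝ) : MvPolynomial.eval (t • e0 - x) pol =
    Pf (t • 1 - Xm x) (t • 1 - Zm x) fun i => -ym x i := pol_ev t x

theorem pol_pos : 0 < MvPolynomial.eval e0 pol := by
  have := pol_ev' 1 0
  rw [one_smul, sub_zero] at this
  have q : Qm (fun i => -ym (0 : Fin 35 → ℝ) i) = 0 := by
    ext i j
    fin_cases i <;> fin_cases j <;> simp [Qm, ym]
  have p0 : ∀ A : Matrix (Fin 4) (Fin 4) ℝ, Ph 0 A = 0 := fun A => by ext i j; simp [Ph]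
  rw [this, Pf, q, p0, show Xm (0 : Fin 35 → ℝ) = 0 from rfl, show Zm (0 : Fin 35 → ℝ) = 0 from rfl]
  simp

theorem pol_hyp (x : Fin 35 → ℝ) (t : ℂ)
    (h : MvPolynomial.aeval (fun i => t * (e0 i : ℂ) - (x i : ℂ)) pol = 0) : t.im = 0 := by
  obtain ⟨T, hT⟩ := exT (ym x)
  exact hyp (Xm_symm x) (Zm_symm x) hT ((pol_ev t x).symm.trans h)

theorem not_lmi {m : ℕ} (A0 : Matrix (Fin m) (Fin m) ℝ) (A : Fin 35 → Matrix (Fin m) (Fin m) ℝ)
    (hA : ∀ i, (A i).IsSymm) (h : ∀ x : Fin 35 → ℝ, (∀ t : ℝ,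
      MvPolynomial.eval (t • e0 - x) pol = 0 → 0 ≤ t) ↔ (A0 + ∑ i, x i • A i).PosSemidef) :
    False := by
  let L := Fintype.linearCombination ℝ A ∘ₗ emb
  have hL : ∀ v, L v = ∑ i, emb v i • A i := fun v => Fintype.linearCombination_apply ℝ A (emb v)
  have sL : ∀ v, (L v).IsSymm := fun v => by
    rw [hL, IsSymm, transpose_sum]
    exact sum_congr rfl fun i _ => (hA i).smul _
  refine core A0 (L ∘ₗ LinearMap.inl ℝ _ _) (L ∘ₗ LinearMap.inr ℝ _ _ ∘ₗ LinearMap.inl ℝ _ _)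
    (L ∘ₗ LinearMap.inr ℝ _ _ ∘ₗ LinearMap.inr ℝ _ _) (fun _ => sL _) (fun _ => sL _)
    (fun _ => sL _) fun X Z y T hX hZ hT => ?_
  have := h (emb (X, Z, y))
  simp only [pol_ev', Xm_emb (sy hX), Zm_emb hZ, ym_emb] at this
  rw [← cone_iff hX hZ hT, this, ← hL]
  simp [← map_add]

end Vale.Agent.P256
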