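import Mathlib

/-! P256: the polynomial `det (det X • Z - Φ_y (adj X))` and its roots. -/

namespace Vale.Agent.P256

open Matrix Finset

section ring
variable {R S : Type*} [CommRing R] [CommRing S]

def Jm (R : Type*) [CommRing R] (k : Fin 3) : Matrix (Fin 4) (Fin 4) R :=
  of fun i j => (if i = 0 ∧ j = k.succ then 1 else 0) - (if i = k.succ ∧ j = 0 then 1 else 0)

/-- the Choi-Lam matrix -/
def Qm (y : Fin 3 → R) : Matrix (Fin 3) (Fin 3) R :=
  !![y 0 ^ 2 + y 2 ^ 2, -(y 0 * y 1), -(y 0 * y 2); -(y 0 * y 1), y 1 ^ 2 + y 0 ^ 2, -(y 1 * y 2);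
    -(y 0 * y 2), -(y 1 * y 2), y 2 ^ 2 + y 1 ^ 2]

def Ph (Q : Matrix (Fin 3) (Fin 3) R) (A : Matrix (Fin 4) (Fin 4) R) : Matrix (Fin 4) (Fin 4) R :=
  of fun i j => ∑ k, ∑ l, ∑ a, ∑ b, Q k l * (Jm R k i a * A a b * Jm R l j b)

def Pf (X Z : Matrix (Fin 4) (Fin 4) R) (y : Fin 3 → R) : R :=
  det (det X • Z - Ph (Qm y) (adjugate X))

theorem map_Pf (f : R →+* S) (X Z : Matrix (Fin 4) (Fin 4) R) (y : Fin 3 → R) :
    f (Pf X Z y) = Pf (X.map f) (Z.map f) (fun i => f (y i)) := by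
  have h1 : ∀ k i j, f (Jm R k i j) = Jm S k i j := fun k i j => by simp [Jm, apply_ite f]
  have h2 : ∀ k l, f (Qm y k l) = Qm (fun i => f (y i)) k l := fun k l => by
    fin_cases k <;> fin_cases l <;> simp [Qm]
  have h3 : ∀ a b, f (adjugate X a b) = adjugate (X.map f) a b := fun a b =>
    congrFun (congrFun (f.map_adjugate X) a) b
  rw [Pf, Pf, f.map_det]
  congr 1
  ext i j
  simp only [RingHom.mapMatrix_apply, map_apply, Matrix.sub_apply, Matrix.smul_apply, smul_eq_mul,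
    map_mul, f.map_det, Ph, of_apply, map_sum, h1, h2, h3, map_sub f]

open MvPolynomial in
theorem det_hom {σ n : Type*} [Fintype n] [DecidableEq n] {A : Matrix n n (MvPolynomial σ R)}
    {d : ℕ} (h : ∀ i j, (A i j).IsHomogeneous d) : A.det.IsHomogeneous (Fintype.card n * d) := by
  rw [det_apply']
  refine IsHomogeneous.sum _ _ _ fun s _ => ?_
  have := (isHomogeneous_C σ ((Equiv.Perm.sign s : ℤ) : R)).mul
    (IsHomogeneous.prod univ _ (fun _ => d) fun i _ => h (s i) i)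
  simpa using this

open MvPolynomial in
theorem Pf_hom {σ : Type*} {X Z : Matrix (Fin 4) (Fin 4) (MvPolynomial σ R)}
    {y : Fin 3 → MvPolynomial σ R} (hX : ∀ i j, (X i j).IsHomogeneous 1)
    (hZ : ∀ i j, (Z i j).IsHomogeneous 1) (hy : ∀ i, (y i).IsHomogeneous 1) :
    (Pf X Z y).IsHomogeneous 20 := by
  have h1 : ∀ k i j, (Jm (MvPolynomial σ R) k i j).IsHomogeneous 0 := fun k i j => by
    refine IsHomogeneous.sub ?_ ?_ <;> split_ifs <;>
      first | exact isHomogeneous_one σ R | exact isHomogeneous_zero σ R 0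
  have h2 : ∀ k l, (Qm y k l).IsHomogeneous 2 := fun k l => by
    have a := fun i j => ((hy i).pow 2).add ((hy j).pow 2)
    have b := fun i j => ((hy i).mul (hy j)).neg
    fin_cases k <;> fin_cases l
    exacts [a 0 2, b 0 1, b 0 2, b 0 1, a 1 0, b 1 2, b 0 2, b 1 2, a 2 1]
  have h3 : ∀ a b, (adjugate X a b).IsHomogeneous 3 := fun a b => by
    rw [adjugate_fin_succ_eq_det_submatrix]
    have := ((isHomogeneous_one σ R).neg.pow ((b : ℕ) + a)).mul
      (det_hom (A := X.submatrix b.succAbove a.succAbove) (d := 1) fun i j => hX _ _)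
    simpa using this
  have h4 : X.det.IsHomogeneous 4 := by simpa using det_hom hX
  suffices H : ∀ i j, ((det X • Z - Ph (Qm y) (adjugate X)) i j).IsHomogeneous 5 by
    simpa [Pf] using det_hom H
  refine fun i j => (h4.mul (hZ i j)).sub ?_
  rw [Ph, of_apply]
  exact IsHomogeneous.sum _ _ _ fun k _ => IsHomogeneous.sum _ _ _ fun l _ =>
    IsHomogeneous.sum _ _ _ fun a _ => IsHomogeneous.sum _ _ _ fun b _ =>
      (h2 k l).mul (((h1 k i a).mul (h3 a b)).mul (h1 l j b))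

def Bm (T : Matrix (Fin 3) (Fin 3) R) : Matrix (Fin 4) (Fin 4 × Fin 3) R :=
  of fun i p => ∑ k, T p.2 k * Jm R k i p.1

theorem Bm_mul (T : Matrix (Fin 3) (Fin 3) R) (A : Matrix (Fin 4) (Fin 4) R) :
    Bm T * blockDiagonal (fun _ : Fin 3 => A) * (Bm T)ᵀ = Ph (Tᵀ * T) A := by
  ext i j
  simp only [mul_apply, Fintype.sum_prod_type, blockDiagonal_apply', Bm, Ph, of_apply,
    transpose_apply, mul_ite, mul_zero, sum_ite_eq', mem_univ, if_true]
  simp only [sum_mul]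
  simp only [Fin.sum_univ_three, ← sum_add_distrib]
  rw [sum_comm]
  exact sum_congr rfl fun _ _ => sum_congr rfl fun _ _ => by ring

def Sm (X Z : Matrix (Fin 4) (Fin 4) R) (T : Matrix (Fin 3) (Fin 3) R) :
    Matrix (Fin 4 ⊕ Fin 4 × Fin 3) (Fin 4 ⊕ Fin 4 × Fin 3) R :=
  fromBlocks Z (Bm T) (Bm T)ᵀ (blockDiagonal fun _ => X)

theorem Sm_sub (t : R) (X Z : Matrix (Fin 4) (Fin 4) R) (T : Matrix (Fin 3) (Fin 3) R) :
    Sm (t • 1 - X) (t • 1 - Z) (-T) = t • 1 - Sm X Z T := by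
  ext (i | ⟨i, k⟩) (j | ⟨j, l⟩) <;>
    simp [Sm, Bm, blockDiagonal_apply', one_apply, ite_and]
  split_ifs <;> simp

theorem Sm_map (f : R →+* S) (X Z : Matrix (Fin 4) (Fin 4) R) (T : Matrix (Fin 3) (Fin 3) R) :
    (Sm X Z T).map f = Sm (X.map f) (Z.map f) (T.map f) := by
  ext (i | ⟨i, k⟩) (j | ⟨j, l⟩) <;> simp [Sm, Bm, Jm, blockDiagonal_apply', apply_ite f]

theorem Sm_symm {X Z : Matrix (Fin 4) (Fin 4) R} (hX : X.IsSymm) (hZ : Z.IsSymm)
    (T : Matrix (Fin 3) (Fin 3) R) : (Sm X Z T).IsSymm := by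
  rw [IsSymm, Sm, fromBlocks_transpose, blockDiagonal_transpose, hX.eq, hZ.eq, transpose_transpose]

end ring

theorem root_iff {K : Type*} [Field K] {X Z : Matrix (Fin 4) (Fin 4) K} {y : Fin 3 → K}
    {T : Matrix (Fin 3) (Fin 3) K} (hT : Tᵀ * T = Qm y) (hX : X.det ≠ 0) :
    Pf X Z y = 0 ↔ (Sm X Z T).det = 0 := by
  have h1 : blockDiagonal (fun _ : Fin 3 => X⁻¹) * blockDiagonal (fun _ : Fin 3 => X) = 1 := by
    rw [← blockDiagonal_mul, nonsing_inv_mul _ hX.isUnit]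
    exact blockDiagonal_one
  let _ := invertibleOfLeftInverse _ _ h1
  have h2 : adjugate X = X.det • X⁻¹ := by
    rw [Matrix.inv_def, smul_smul, Ring.mul_inverse_cancel _ hX.isUnit, one_smul]
  have h3 : Ph (Qm y) (X.det • X⁻¹) = X.det • Ph (Qm y) X⁻¹ := by
    ext i j
    simp only [Ph, of_apply, Matrix.smul_apply, smul_eq_mul, mul_sum]
    exact sum_congr rfl fun _ _ => sum_congr rfl fun _ _ => sum_congr rfl fun _ _ =>
      sum_congr rfl fun _ _ => by ring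
  rw [Sm, det_fromBlocks₂₂, invOf_eq_left_inv h1, Bm_mul, hT, det_blockDiagonal, Pf, h2, h3,
    ← smul_sub, det_smul]
  simp [hX]

theorem eig_iff {K n : Type*} [RCLike K] [Fintype n] [DecidableEq n] {A : Matrix n n K}
    (hA : A.IsHermitian) (t : K) : (t • 1 - A).det = 0 ↔ ∃ i, (hA.eigenvalues i : K) = t := by
  have := Set.ext_iff.1 hA.spectrum_eq_image_range t
  rw [spectrum.mem_iff, isUnit_iff_isUnit_det, isUnit_iff_ne_zero, not_not,
    Algebra.algebraMap_eq_smul_one] at this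
  simpa using this

theorem im_eq {n : Type*} [Fintype n] [DecidableEq n] {A : Matrix n n ℝ} (hA : A.IsSymm) {t : ℂ}
    (h : (t • 1 - A.map Complex.ofRealHom).det = 0) : t.im = 0 := by
  have h1 : (A.map Complex.ofRealHom).IsHermitian := by
    ext i j
    simp [hA.apply]
  obtain ⟨i, rfl⟩ := (eig_iff h1 t).1 h
  exact Complex.ofReal_im _

theorem psd_iff {n : Type*} [Fintype n] [DecidableEq n] {A : Matrix n n ℝ} (hA : A.IsSymm) :
    A.PosSemidef ↔ ∀ t : ℝ, (t • 1 - A).det = 0 → 0 ≤ t := by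
  have h1 : A.IsHermitian := hA
  rw [h1.posSemidef_iff_eigenvalues_nonneg]
  exact ⟨fun h t ht => by obtain ⟨i, rfl⟩ := (eig_iff h1 t).1 ht; exact h i,
    fun h i => h _ ((eig_iff h1 _).2 ⟨i, rfl⟩)⟩

theorem Qm_neg {R : Type*} [CommRing R] (y : Fin 3 → R) : Qm (fun i => -y i) = Qm y := by
  simp [Qm]

theorem hyp {X Z : Matrix (Fin 4) (Fin 4) ℝ} (hX : X.IsSymm) (hZ : Z.IsSymm) {y : Fin 3 → ℝ}
    {T : Matrix (Fin 3) (Fin 3) ℝ} (hT : Tᵀ * T = Qm y) {t : ℂ}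
    (h : Pf (t • 1 - X.map Complex.ofRealHom) (t • 1 - Z.map Complex.ofRealHom)
      (fun i => -(y i : ℂ)) = 0) : t.im = 0 := by
  by_contra c
  rw [root_iff (T := -T.map Complex.ofRealHom) ?_ (mt (im_eq hX) c), Sm_sub, ← Sm_map] at h
  · exact c (im_eq (Sm_symm hX hZ T) h)
  · rw [transpose_neg, neg_mul_neg, ← transpose_map, ← Matrix.map_mul, hT, Qm_neg]
    ext k l
    fin_cases k <;> fin_cases l <;> simp [Qm]

theorem cone_iff {X Z : Matrix (Fin 4) (Fin 4) ℝ} (hX : X.PosSemidef) (hZ : Z.IsSymm)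
    {y : Fin 3 → ℝ} {T : Matrix (Fin 3) (Fin 3) ℝ} (hT : Tᵀ * T = Qm y) :
    (∀ t : ℝ, Pf (t • 1 - X) (t • 1 - Z) (fun i => -y i) = 0 → 0 ≤ t) ↔ (Sm X Z T).PosSemidef := by
  have hX' : X.IsSymm := hX.1
  rw [psd_iff (Sm_symm hX' hZ T)]
  refine forall_congr' fun t => ?_
  by_cases c : 0 ≤ t
  · simp [c]
  · rw [root_iff (T := -T) (by rw [transpose_neg, neg_mul_neg, hT, Qm_neg])
      (mt ((psd_iff hX').1 hX t) c), Sm_sub]

end Vale.Agent.P256
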